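import Vale.Agent.P091.T.H103.Bad

/-!
# P091, row E1, instantiation of `inst` (helper103): the error mass

If the error of a letter with status `some w` is at most `ε 2^-(|v|-|w|)`, then the total error
mass is at most `2 ε (1 + m)`, `m` = mass of the letters which leave.
-/

open Vale.Agent.P091.H413

namespace Vale.Agent.P091.T.H34

open Vale.Agent.P091.T.H103

/-- potential of one letter with status `o` at depth `m` -/
noncomputable def pot (ε : ℝ) (m : ℕ) : Option Node → ℝ
  | none => 0
  | some w => 2 * ε - 2 * ε / 2 ^ (m - w.length)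

theorem pot_nonneg {ε : ℝ} (hε : 0 ≤ ε) (m : ℕ) (o : Option Node) : 0 ≤ pot ε m o := by
  rcases o with _ | w
  · exact le_rfl
  · show 0 ≤ 2 * ε - 2 * ε / 2 ^ (m - w.length)
    have h1 : (1 : ℝ) ≤ 2 ^ (m - w.length) := one_le_pow₀ (by norm_num)
    have h2 : 2 * ε / 2 ^ (m - w.length) ≤ 2 * ε := div_le_self (by positivity) h1
    linarith

theorem pot_le {ε : ℝ} (hε : 0 ≤ ε) (m : ℕ) (o : Option Node) : pot ε m o ≤ 2 * ε := by
  rcases o with _ | w
  · show 0 ≤ 2 * ε
    positivity
  · show 2 * ε - 2 * ε / 2 ^ (m - w.length) ≤ 2 * ε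
    have : 0 ≤ 2 * ε / 2 ^ (m - w.length) := by positivity
    linarith

theorem pot_succ (ε : ℝ) {m : ℕ} {w : Node} (hw : w.length ≤ m) :
    pot ε (m + 1) (some w) - pot ε m (some w) = ε / 2 ^ (m - w.length) := by
  show (2 * ε - 2 * ε / 2 ^ (m + 1 - w.length)) - (2 * ε - 2 * ε / 2 ^ (m - w.length)) = _
  have e1 : m + 1 - w.length = (m - w.length) + 1 := by omega
  rw [e1, pow_succ]
  field_simp
  ring

/-- **the error mass** of a `Dat` -/
theorem em_le {ι I Q : Type} [Fintype ι] [Fintype I] [Fintype Q] {d : Dat ι I Q} (h : d.Ok)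
    {ε m : ℝ} (hε : 0 ≤ ε)
    (herr : ∀ κ v w, v.length < d.n → d.st κ v = some w →
      d.err κ v ≤ ε / 2 ^ (v.length - w.length))
    (hm : S d.n d.lm [] ≤ m) : S d.n d.em [] ≤ 2 * ε * (1 + m) := by
  classical
  set Θ : Node → ℝ := fun v => ∑ κ, d.ma κ v * pot ε v.length (d.st κ v) with hΘ
  set Θ' : Node → ℝ := fun v => ∑ κ, d.ma κ v * pot ε v.length (d.st' κ v) with hΘ'
  have hlen : ∀ κ v w, v.length < d.n → d.st κ v = some w → w.length ≤ v.length := by
    intro κ v w hv hw
    have := Dat.st'_len h κ (v := true :: v) (w := w) (by simp only [List.length_cons]; omega) hw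
    simp only [List.length_cons] at this
    omega
  have hlm0 : ∀ v : Node, v.length ≤ d.n → 0 ≤ d.lm v := by
    intro v hv
    unfold Dat.lm
    refine Finset.sum_nonneg fun κ _ => ?_
    split_ifs
    · exact Dat.ma_nonneg h κ hv
    · exact le_rfl
  have main := S_tele2 d.n (f := d.em) (g := fun _ => 0) (Φ := Θ) (Φ' := Θ')
    (ℓ := fun v => 2 * ε * d.lm v) (c := 2 * ε) (by positivity) [] ?_ ?_ ?_ ?_ ?_
  · have h0 : S d.n (fun _ => (0 : ℝ)) [] = 0 := by
      have := S_smul d.n 0 (fun _ => 0) []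
      simpa using this
    rw [h0, S_smul] at main
    have h2 : 2 * ε * S d.n d.lm [] ≤ 2 * ε * m := mul_le_mul_of_nonneg_left hm (by positivity)
    linarith
  · intro v hv
    simp only [List.length_nil, add_zero] at hv
    have e1 : (Θ' (true :: v) + Θ' (false :: v)) / 2 - Θ v
        = ∑ κ, d.ma κ v * (pot ε (v.length + 1) (d.st κ v) - pot ε v.length (d.st κ v)) := by
      simp only [hΘ, hΘ']
      rw [← Finset.sum_add_distrib, Finset.sum_div, ← Finset.sum_sub_distrib]
      refine Finset.sum_congr rfl fun κ _ => ?_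
      have e2 : d.ma κ v = (d.ma κ (true :: v) + d.ma κ (false :: v)) / 2 := Dat.av_eq hv _
      show (d.ma κ (true :: v) * pot ε (v.length + 1) (d.st κ v)
        + d.ma κ (false :: v) * pot ε (v.length + 1) (d.st κ v)) / 2
        - d.ma κ v * pot ε v.length (d.st κ v) = _
      rw [e2]
      ring
    rw [e1, add_zero]
    unfold Dat.em
    refine Finset.sum_le_sum fun κ _ => ?_
    have hma := Dat.ma_nonneg h κ hv.le
    rcases ho : d.st κ v with _ | w
    · simp [pot]
    · rw [if_pos (by simp), pot_succ ε (hlen κ v w hv ho), mul_comm (d.err κ v)]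
      exact mul_le_mul_of_nonneg_left (herr κ v w hv ho) hma
  · intro v _ hv
    simp only [List.length_nil, add_zero] at hv
    simp only [hΘ, hΘ', Dat.lm]
    rw [← Finset.sum_sub_distrib, Finset.mul_sum]
    refine Finset.sum_le_sum fun κ _ => ?_
    have hma := Dat.ma_nonneg h κ hv.le
    rw [← mul_sub]
    by_cases h1 : d.st κ v = d.st' κ v
    · rw [h1, sub_self, mul_zero]
      simp
    · by_cases h2 : d.st' κ v = none
      · rw [if_neg (fun h3 => h3.1 h2), mul_zero, h2]
        have := pot_nonneg hε v.length (d.st κ v)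
        have h3 : pot ε v.length none = 0 := rfl
        rw [h3]
        nlinarith
      · rw [if_pos ⟨h2, h1⟩, mul_comm]
        refine mul_le_mul_of_nonneg_right ?_ hma
        have h3 := pot_nonneg hε v.length (d.st κ v)
        have h4 := pot_le hε v.length (d.st' κ v)
        linarith
  · intro v hv
    simp only [List.length_nil, add_zero] at hv
    exact mul_nonneg (by positivity) (hlm0 v hv.le)
  · exact Finset.sum_nonneg fun κ _ => mul_nonneg
      (Dat.ma_nonneg h κ (by simp)) (pot_nonneg hε _ _)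
  · intro v hv
    simp only [List.length_nil, add_zero] at hv
    calc Θ' v ≤ ∑ κ, d.ma κ v * (2 * ε) := Finset.sum_le_sum fun κ _ =>
          mul_le_mul_of_nonneg_left (pot_le hε _ _) (Dat.ma_nonneg h κ hv)
      _ = (∑ κ, d.ma κ v) * (2 * ε) := by rw [Finset.sum_mul]
      _ ≤ 1 * (2 * ε) := mul_le_mul_of_nonneg_right (Dat.sum_ma_le h hv) (by positivity)
      _ = 2 * ε := one_mul _

end Vale.Agent.P091.T.H34
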