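import Vale.Agent.P091.T.H34.Tree
import Vale.Agent.P091.H413.EDefs
import Vale.Agent.P091.LE.H219.Energy
import Vale.Agent.P091.T.H960.Floor

/-! # P091, row TRIV: the crude bound for the gain of a piece `p'` of `p` below a node `v₀` -/

open Finset

namespace Vale.Agent.P091.T.H34

open Vale.Agent.P091.Spec Vale.Agent.P091.H413 Vale.Agent.P091.T.H350

variable {C0 D : ℝ} {n : ℕ} {ι : Type} [Fintype ι]

/-- the floor condition of `HEAVY_FLOOR` -/
def Floor (C1 : ℝ) (d : HData C0 D n ι) : Prop :=
  ∀ k i, d.A k i ≠ 0 → ∀ j, d.js k ≤ j → j ≤ n →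
    Real.exp (-(C1 * D)) ≤ av n j (anc n j i) (d.a k)

/-- activation level of the class `k` below a node of level `L` -/
def sgm (d : HData C0 D n ι) (L : ℕ) (k : ι) : ℕ := max (d.js k + 3) L

open Classical in
/-- the part of the class `k` in the activation nodes which contain some weight -/
noncomputable def aa (d : HData C0 D n ι) (L : ℕ) (k : ι) (i : ℕ) : ℝ :=
  if ∃ i' ∈ nd n (sgm d L k) (anc n (sgm d L k) i), d.A k i' ≠ 0 then d.a k i else 0

theorem aa_nonneg (d : HData C0 D n ι) (L : ℕ) (k : ι) (i : ℕ) : 0 ≤ aa d L k i := by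
  unfold aa
  split_ifs
  · exact d.a_nonneg k i
  · exact le_rfl

theorem aa_le (d : HData C0 D n ι) (L : ℕ) (k : ι) (i : ℕ) : aa d L k i ≤ d.a k i := by
  unfold aa
  split_ifs
  · exact le_rfl
  · exact d.a_nonneg k i

theorem norm_A_le_aa (d : HData C0 D n ι) (L : ℕ) (k : ι) (i : ℕ) : ‖d.A k i‖ ≤ aa d L k i := by
  by_cases h : d.A k i = 0
  · rw [h, norm_zero]; exact aa_nonneg d L k i
  · unfold aa
    rw [if_pos ⟨i, mem_nd.2 rfl, h⟩]
    exact d.A_le k i

theorem AV_nonneg {F : ℕ → ℝ} (h : ∀ i, 0 ≤ F i) (v : Node) : 0 ≤ AV n F v := av_nonneg h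

theorem AV_mono {F G : ℕ → ℝ} (h : ∀ i, F i ≤ G i) (v : Node) : AV n F v ≤ AV n G v :=
  av_mono fun i _ => h i

theorem sum_AV_aa_le (d : HData C0 D n ι) (L : ℕ) (v : Node) : ∑ k, AV n (aa d L k) v ≤ 1 :=
  (sum_le_sum fun k _ => AV_mono (aa_le d L k) v).trans (sum_AV_a_le d v)

theorem norm_AC_A_le_aa (d : HData C0 D n ι) (L : ℕ) (k : ι) (v : Node) :
    ‖AC n (d.A k) v‖ ≤ AV n (aa d L k) v := norm_avC_le fun i _ => norm_A_le_aa d L k i

theorem AV_eq_zero_of {F : ℕ → ℝ} {v : Node} (h : ∀ i ∈ nd n v.length (ix v), F i = 0) :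
    AV n F v = 0 := by
  by_contra hc
  obtain ⟨i, hi, hne⟩ := AV_ne_zero hc
  exact hne (h i hi)

theorem AC_eq_zero_of {F : ℕ → ℂ} {v : Node} (h : ∀ i ∈ nd n v.length (ix v), F i = 0) :
    AC n F v = 0 := by
  by_contra hc
  obtain ⟨i, hi, hne⟩ := AC_ne_zero hc
  exact hne (h i hi)

/-- leaves of a child are leaves of the node -/
theorem mem_nd_of_child {v : Node} {b : Bool} (hv : v.length < n) {i : ℕ}
    (hi : i ∈ nd n (b :: v).length (ix (b :: v))) : i ∈ nd n v.length (ix v) := by
  rw [nd_split hv, mem_union]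
  cases b
  · right; simpa using hi
  · left; simpa using hi

/-- at an activation node the class has mass `0` or at least the floor -/
theorem act_mass {C1 : ℝ} {d : HData C0 D n ι} (hf : Floor C1 d) {L : ℕ} {k : ι} {v : Node}
    (hv : v.length ≤ n) (hL : sgm d L k = v.length) :
    AV n (aa d L k) v = 0 ∨ Real.exp (-(C1 * D)) ≤ AV n (aa d L k) v := by
  classical
  by_cases h : ∃ i' ∈ nd n v.length (ix v), d.A k i' ≠ 0
  · right
    have e : AV n (aa d L k) v = AV n (d.a k) v := by
      unfold AV av
      congr 1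
      refine sum_congr rfl fun i hi => ?_
      unfold aa
      rw [hL, mem_nd.1 hi, if_pos h]
    obtain ⟨i', hi', hne⟩ := h
    rw [e]
    have h1 := hf k i' hne v.length (by
      have : d.js k + 3 ≤ sgm d L k := le_max_left _ _
      omega) hv
    rw [mem_nd.1 hi'] at h1
    exact h1
  · left
    apply AV_eq_zero_of
    intro i hi
    unfold aa
    rw [hL, mem_nd.1 hi, if_neg h]

/-! ## the system -/

/-- exits: the piece has density more than `2 M` -/
def ex2 (n : ℕ) (p' : ℕ → ℝ) (v₀ : Node) (w : Node) : Prop :=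
  2 * AV n p' v₀ < AV n p' (w ++ v₀)

open Classical in
/-- the system of the crude bound -/
noncomputable def sys (d : HData C0 D n ι) (p' : ℕ → ℝ) (v₀ : Node) : ESys ι Unit where
  α k w := if sgm d v₀.length k ≤ (w ++ v₀).length then AV n (aa d v₀.length k) (w ++ v₀) else 0
  α' k w := if sgm d v₀.length k < (w ++ v₀).length then AV n (aa d v₀.length k) (w ++ v₀) else 0
  A k _ w := if sgm d v₀.length k ≤ (w ++ v₀).length then AC n (d.A k) (w ++ v₀) else 0
  A' k _ w := if sgm d v₀.length k < (w ++ v₀).length then AC n (d.A k) (w ++ v₀) else 0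
  G _ w := if keep (ex2 n p' v₀) w then AV n p' (w ++ v₀) / (2 * AV n p' v₀) else 0
  G' _ w := if kpar (ex2 n p' v₀) w then AV n p' (w ++ v₀) / (2 * AV n p' v₀) else 0
  B k _ w := if keep (ex2 n p' v₀) w then
    BN n p' (d.ξ k) (w ++ v₀) / ((2 * AV n p' v₀ : ℝ) : ℂ) else 0
  B' k _ w := if kpar (ex2 n p' v₀) w then
    BN n p' (d.ξ k) (w ++ v₀) / ((2 * AV n p' v₀ : ℝ) : ℂ) else 0

theorem norm_div_le_div {z : ℂ} {x M : ℝ} (hM : 0 < M) (h : ‖z‖ ≤ x) :
    ‖z / ((M : ℝ) : ℂ)‖ ≤ x / M := by
  rw [norm_div, Complex.norm_real, Real.norm_eq_abs, abs_of_pos hM]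
  gcongr

theorem keep_le {p' : ℕ → ℝ} {v₀ : Node} (hM : 0 < AV n p' v₀) {w : Node}
    (h : keep (ex2 n p' v₀) w) : AV n p' (w ++ v₀) ≤ 2 * AV n p' v₀ := by
  cases w with
  | nil => simp only [List.nil_append]; linarith
  | cons b w => exact not_lt.1 h.2

theorem kpar_le {p' : ℕ → ℝ} (hp' : ∀ i, 0 ≤ p' i) {v₀ : Node} (hM : 0 < AV n p' v₀) {w : Node}
    (hw : (w ++ v₀).length ≤ n)
    (h : kpar (ex2 n p' v₀) w) : AV n p' (w ++ v₀) ≤ 4 * AV n p' v₀ := by
  cases w with
  | nil => simp only [List.nil_append]; linarith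
  | cons b w =>
    have h1 := keep_le hM (w := w) h
    have hw' : (w ++ v₀).length < n := by
      simp only [List.cons_append, List.length_cons] at hw; omega
    have h2 := AV_mart p' hw'
    have h3 := AV_nonneg (n := n) hp' (true :: (w ++ v₀))
    have h4 := AV_nonneg (n := n) hp' (false :: (w ++ v₀))
    cases b
    · rw [List.cons_append]; linarith
    · rw [List.cons_append]; linarith

theorem sys_ok (d : HData C0 D n ι) {p' : ℕ → ℝ} (hp' : ∀ i, 0 ≤ p' i) {v₀ : Node}
    (hM : 0 < AV n p' v₀) (hv₀ : v₀.length ≤ n) : (sys d p' v₀).Ok (n - v₀.length) := by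
  have hM2 : 0 < 2 * AV n p' v₀ := by linarith
  constructor
  · intro k w _
    simp only [sys]
    split_ifs
    · exact AV_nonneg (aa_nonneg d _ k) _
    · exact le_rfl
  · intro k w _
    simp only [sys]
    split_ifs
    · exact AV_nonneg (aa_nonneg d _ k) _
    · exact le_rfl
  · intro w _
    simp only [sys]
    refine le_trans (sum_le_sum fun k _ => ?_) (sum_AV_aa_le d v₀.length (w ++ v₀))
    split_ifs
    · exact le_rfl
    · exact AV_nonneg (aa_nonneg d _ k) _
  · intro w _
    simp only [sys]
    refine le_trans (sum_le_sum fun k _ => ?_) (sum_AV_aa_le d v₀.length (w ++ v₀))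
    split_ifs
    · exact le_rfl
    · exact AV_nonneg (aa_nonneg d _ k) _
  · intro k w hw
    have hl : (w ++ v₀).length < n := by rw [List.length_append]; omega
    simp only [sys, List.cons_append, List.length_cons]
    by_cases h : sgm d v₀.length k ≤ (w ++ v₀).length
    · rw [if_pos h, if_pos (by omega), if_pos (by omega)]
      exact AV_mart _ hl
    · rw [if_neg h, if_neg (by omega), if_neg (by omega)]
      simp
  · intro k q w _
    simp only [sys]
    split_ifs
    · exact norm_AC_A_le_aa d _ k _
    · simp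
  · intro k q w _
    simp only [sys]
    split_ifs
    · exact norm_AC_A_le_aa d _ k _
    · simp
  · intro k q w hw
    have hl : (w ++ v₀).length < n := by rw [List.length_append]; omega
    simp only [sys, List.cons_append, List.length_cons]
    by_cases h : sgm d v₀.length k ≤ (w ++ v₀).length
    · rw [if_pos h, if_pos (by omega), if_pos (by omega)]
      exact AC_mart _ hl
    · rw [if_neg h, if_neg (by omega), if_neg (by omega)]
      simp
  · intro q w _
    simp only [sys]
    split_ifs
    · exact div_nonneg (AV_nonneg hp' _) hM2.le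
    · exact le_rfl
  · intro q w _
    simp only [sys]
    split_ifs
    · exact div_nonneg (AV_nonneg hp' _) hM2.le
    · exact le_rfl
  · intro w hw
    simp only [sys, univ_unique, sum_const, card_singleton, one_smul]
    split_ifs with h
    · rw [div_le_iff₀ hM2]
      have := keep_le hM h
      linarith
    · norm_num
  · intro w hw
    have hl : (w ++ v₀).length ≤ n := by rw [List.length_append]; omega
    simp only [sys, univ_unique, sum_const, card_singleton, one_smul]
    split_ifs with h
    · rw [div_le_iff₀ hM2]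
      have := kpar_le hp' hM hl h
      linarith
    · norm_num
  · intro q w hw
    have hl : (w ++ v₀).length < n := by rw [List.length_append]; omega
    simp only [sys, List.cons_append]
    by_cases h : keep (ex2 n p' v₀) w
    · rw [if_pos h, if_pos (show kpar _ (true :: w) from h),
        if_pos (show kpar _ (false :: w) from h), AV_mart p' hl]
      ring
    · rw [if_neg h, if_neg (show ¬ kpar _ (true :: w) from h),
        if_neg (show ¬ kpar _ (false :: w) from h)]
      simp
  · intro k q w _
    simp only [sys]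
    split_ifs
    · exact norm_div_le_div hM2 (norm_BN_le hp' _ _)
    · simp
  · intro k q w _
    simp only [sys]
    split_ifs
    · exact norm_div_le_div hM2 (norm_BN_le hp' _ _)
    · simp
  · intro k q w hw
    have hl : (w ++ v₀).length < n := by rw [List.length_append]; omega
    simp only [sys, List.cons_append]
    by_cases h : keep (ex2 n p' v₀) w
    · rw [if_pos h, if_pos (show kpar _ (true :: w) from h),
        if_pos (show kpar _ (false :: w) from h), BN_mart p' _ hl]
      ring
    · rw [if_neg h, if_neg (show ¬ kpar _ (true :: w) from h),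
        if_neg (show ¬ kpar _ (false :: w) from h)]
      simp
  · intro q w _
    simp only [sys]
    by_cases h : keep (ex2 n p' v₀) w
    · rw [if_pos h, if_pos (keep_kpar h)]
    · rw [if_neg h]
      split_ifs
      · exact div_nonneg (AV_nonneg hp' _) hM2.le
      · exact le_rfl
  · intro k w _
    simp only [sys]
    by_cases h : sgm d v₀.length k < (w ++ v₀).length
    · right
      refine ⟨?_, ?_, ?_⟩
      · intro q
        rw [if_pos h, if_pos h.le, if_pos h, if_pos h.le]
        simp
      · rw [if_pos h, if_pos h.le]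
      · intro q
        by_cases hk : keep (ex2 n p' v₀) w
        · rw [if_pos hk, if_pos hk, if_pos (keep_kpar hk), if_pos (keep_kpar hk)]
          simp
        · rw [if_neg hk, if_neg hk, sub_zero, sub_zero]
          split_ifs
          · exact norm_div_le_div hM2 (norm_BN_le hp' _ _)
          · simp
    · left
      rw [if_neg h]

/-! ## the energies -/

theorem sys_x (d : HData C0 D n ι) {p' : ℕ → ℝ} (hp' : ∀ i, 0 ≤ p' i) {v₀ : Node}
    (hM : 0 < AV n p' v₀) (hv₀ : v₀.length ≤ n) {C1 : ℝ} (hC1 : 0 ≤ C1 * D) (hf : Floor C1 d) :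
    S (n - v₀.length) (fun v => ∑ k, (sys d p' v₀).dα k v ^ 2 / (sys d p' v₀).α k v) []
      ≤ 2 * (C1 * D) := by
  have ok := sys_ok d hp' hM hv₀
  have h1 := LE.H219.x_energy_act (n - v₀.length) (sys d p' v₀).α (sys d p' v₀).α' (C1 * D) 0 hC1
    ok.α0 ok.α0' ok.αsum' ok.αm ?_ ?_ ?_
  · have e : 2 * (C1 * D * (1 + 0) + 0) = 2 * (C1 * D) := by ring
    rw [e] at h1
    exact h1
  · intro k w hw hor
    have hl : (w ++ v₀).length < n := by rw [List.length_append]; omega
    by_cases h : sgm d v₀.length k < (w ++ v₀).length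
    · rcases hor with rfl | hor
      · have : v₀.length ≤ sgm d v₀.length k := le_max_right _ _
        simp only [List.nil_append] at h
        omega
      · left
        simp only [sys] at hor ⊢
        rw [if_pos h] at hor
        rw [if_pos h.le, hor]
    · by_cases h2 : sgm d v₀.length k = (w ++ v₀).length
      · simp only [sys]
        rw [if_pos h2.le]
        exact act_mass hf hl.le h2
      · left
        simp only [sys]
        rw [if_neg (by omega)]
  · intro k c w _
    by_cases h : sgm d v₀.length k < (c :: w ++ v₀).length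
    · right
      simp only [sys]
      rw [if_pos h, if_pos h.le]
    · left
      simp only [sys]
      rw [if_neg h]
  · have h2 : ∀ w : Node, w.length < n - v₀.length + ([] : Node).length →
        ∑ k, max ((sys d p' v₀).α' k w - (sys d p' v₀).α k w) 0 ≤ 0 := by
      intro w _
      refine (sum_le_sum (g := fun _ => (0:ℝ)) fun k _ => ?_).trans (by simp)
      refine max_le ?_ le_rfl
      simp only [sys]
      split_ifs
      · simp
      · omega
      · simpa using AV_nonneg (aa_nonneg d _ k) _
      · simp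
    have h3 := S_mono (n - v₀.length) [] h2
    have h4 : S (n - v₀.length) (fun _ => (0:ℝ)) [] = 0 := by
      have := S_smul (n - v₀.length) 0 (fun _ => 0) []
      simpa using this
    linarith

theorem posPart_telescope (N : ℕ) (G G' : Node → ℝ) (v : Node)
    (hm : ∀ w : Node, w.length < N + v.length → G w = (G' (true :: w) + G' (false :: w)) / 2) :
    S N (fun w => G' w - G w) v = G' v - Lf N G' v := by
  have h := LE.H219.S_tele3_eq N (f := fun _ => 0) (Φ := G) (Φ' := G') v
    (fun w hw => by rw [hm w hw]; ring)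
  have h4 : S N (fun _ => (0:ℝ)) v = 0 := by
    have := S_smul N 0 (fun _ => 0) v
    simpa using this
  linarith

theorem sys_y (d : HData C0 D n ι) {p' : ℕ → ℝ} (hp' : ∀ i, 0 ≤ p' i) {v₀ : Node}
    (hM : 0 < AV n p' v₀) (hv₀ : v₀.length ≤ n) :
    S (n - v₀.length) (fun v => ∑ q, (sys d p' v₀).dG q v ^ 2 / (sys d p' v₀).G q v) [] ≤ 6 := by
  have ok := sys_ok d hp' hM hv₀
  have hG0 : (sys d p' v₀).G' () [] = 1 / 2 := by
    simp only [sys]
    rw [if_pos (show kpar _ [] from trivial), List.nil_append]
    field_simp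
  have hrem : S (n - v₀.length)
      (fun v => ∑ q, ((sys d p' v₀).G' q v - (sys d p' v₀).G q v)) [] ≤ 1 / 2 := by
    simp only [univ_unique, sum_singleton]
    rw [posPart_telescope (n - v₀.length) _ _ [] (fun w hw => ok.Gm _ w (by simpa using hw))]
    have h1 : 0 ≤ Lf (n - v₀.length) ((sys d p' v₀).G' ()) [] := by
      have h2 := Lf_le (n - v₀.length) (f := fun w => -((sys d p' v₀).G' () w)) (c := 0) []
        (fun w hw => by
          have := ok.G0' () w (by simpa using hw)
          linarith)
      have h3 : Lf (n - v₀.length) (fun w => -((sys d p' v₀).G' () w)) []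
          = -Lf (n - v₀.length) ((sys d p' v₀).G' ()) [] := by
        have key : ∀ (m : ℕ) (w : Node), Lf m (fun w => -((sys d p' v₀).G' () w)) w
            = -Lf m ((sys d p' v₀).G' ()) w := by
          intro m
          induction m with
          | zero => intro w; rfl
          | succ m ih => intro w; simp only [Lf]; rw [ih, ih]; ring
        exact key _ _
      linarith
    have h5 : (sys d p' v₀).G' default [] = 1 / 2 := hG0
    have h6 : 0 ≤ Lf (n - v₀.length) ((sys d p' v₀).G' default) [] := h1
    linarith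
  have h := LE.H219.y_energy_le (n - v₀.length) (sys d p' v₀).G (sys d p' v₀).G' []
    (Real.log 2) (1 / 2) 2 (Real.log_nonneg (by norm_num))
    (fun q w hw => ok.G0 q w (by simpa using hw)) (fun q w hw => ok.G0' q w (by simpa using hw))
    (fun q w hw => ok.Gm q w (by simpa using hw)) (fun q w hw => ok.Gr q w (by simpa using hw))
    (fun q w hw => by
      rw [Real.exp_log (by norm_num)]
      have h1 := ok.Gsum' w (by simpa using hw)
      simpa using h1)
    (fun w hw => ok.Gsum' w (by simpa using hw)) hrem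
  refine h.trans ?_
  simp only [univ_unique, sum_singleton]
  have h5 : (sys d p' v₀).G' default [] = 1 / 2 := hG0
  rw [h5]
  have h6 : Real.log (1 / 2) = -Real.log 2 := by
    rw [one_div, Real.log_inv]
  rw [h6]
  have h7 : Real.log 2 ≤ 0.7 := by
    have := Real.log_two_lt_d9
    linarith
  nlinarith

/-! ## the gain of one node -/

theorem AV_child_zero {F : ℕ → ℝ} (hF : ∀ i, 0 ≤ F i) {v : Node} (hv : v.length < n)
    (h : AV n F v = 0) (b : Bool) : AV n F (b :: v) = 0 := by
  have h1 := AV_mart F hv
  have h2 := AV_nonneg (n := n) hF (true :: v)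
  have h3 := AV_nonneg (n := n) hF (false :: v)
  cases b <;> linarith

theorem node_gain (d : HData C0 D n ι) {p' : ℕ → ℝ} {v₀ : Node}
    (hM : 0 < AV n p' v₀) {w : Node} (hw : w.length < n - 1 - v₀.length)
    (hk : keep (ex2 n p' v₀) w) :
    ‖gtp d p' (w ++ v₀)‖ ≤ AV n p' v₀ *
      ((sys d p' v₀).gain1 true w + (sys d p' v₀).gain1 false w) := by
  have hl : (w ++ v₀).length + 1 < n := by rw [List.length_append]; omega
  have hM2 : ((2 * AV n p' v₀ : ℝ) : ℂ) ≠ 0 := by
    have : (2 * AV n p' v₀ : ℝ) ≠ 0 := by positivity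
    exact_mod_cast this
  have key : ∀ b : Bool, ‖∑ k, if d.js k + 3 ≤ (w ++ v₀).length then
        hd (AC n (d.A k)) (b :: (w ++ v₀)) * hd (BN n p' (d.ξ k)) (w ++ v₀) else 0‖
      = 2 * AV n p' v₀ * (sys d p' v₀).gain1 b w := by
    intro b
    have e : (∑ k, if d.js k + 3 ≤ (w ++ v₀).length then
        hd (AC n (d.A k)) (b :: (w ++ v₀)) * hd (BN n p' (d.ξ k)) (w ++ v₀) else 0)
        = ((2 * AV n p' v₀ : ℝ) : ℂ) * ∑ k, if (sys d p' v₀).α' k (b :: w) = 0 then 0 else
            ∑ q, (sys d p' v₀).dA k q (b :: w) * (sys d p' v₀).dB k q w := by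
      rw [mul_sum]
      refine sum_congr rfl fun k _ => ?_
      by_cases h : d.js k + 3 ≤ (w ++ v₀).length
      · have hs : sgm d v₀.length k < (w ++ v₀).length + 1 := by
          have : v₀.length ≤ (w ++ v₀).length := by rw [List.length_append]; omega
          unfold sgm
          omega
        rw [if_pos h]
        have hα : (sys d p' v₀).α' k (b :: w) = AV n (aa d v₀.length k) (b :: (w ++ v₀)) := by
          simp only [sys, List.cons_append, List.length_cons]
          rw [if_pos hs]
        rw [hα]
        by_cases hz : AV n (aa d v₀.length k) (b :: (w ++ v₀)) = 0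
        · rw [if_pos hz, mul_zero]
          have hc : ∀ c : Bool, AC n (d.A k) (c :: b :: (w ++ v₀)) = 0 := by
            intro c
            have h1 := norm_AC_A_le_aa d v₀.length k (c :: b :: (w ++ v₀))
            rw [AV_child_zero (aa_nonneg d _ k) (by simp only [List.length_cons]; omega) hz c] at h1
            exact norm_le_zero_iff.1 h1
          unfold hd
          rw [hc, hc]
          simp
        · rw [if_neg hz]
          simp only [univ_unique, sum_singleton]
          have h1 : (sys d p' v₀).dA k default (b :: w)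
              = hd (AC n (d.A k)) (b :: (w ++ v₀)) := by
            simp only [ESys.dA, sys, List.cons_append, List.length_cons, hd]
            rw [if_pos (by omega), if_pos (by omega)]
          have h2 : (sys d p' v₀).dB k default w
              = hd (BN n p' (d.ξ k)) (w ++ v₀) / ((2 * AV n p' v₀ : ℝ) : ℂ) := by
            simp only [ESys.dB, sys, List.cons_append, hd]
            rw [if_pos (show kpar _ (true :: w) from hk), if_pos (show kpar _ (false :: w) from hk)]
            ring
          rw [h1, h2]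
          field_simp
      · rw [if_neg h]
        have hα : (sys d p' v₀).α' k (b :: w) = 0 := by
          simp only [sys, List.cons_append, List.length_cons]
          rw [if_neg]
          have : d.js k + 3 ≤ sgm d v₀.length k := le_max_left _ _
          omega
        rw [if_pos hα, mul_zero]
    rw [e, norm_mul, Complex.norm_real, Real.norm_eq_abs, abs_of_pos (by linarith)]
    rfl
  have h := norm_gtp_le d p' (w ++ v₀)
  rw [key true, key false] at h
  linarith

/-- **the epoch bound**: the gain at the nodes before the first doubling -/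
theorem epoch (hE : LemmaE) : ∃ C : ℝ, 0 < C ∧ ∀ {C0 D : ℝ} {n : ℕ} {ι : Type} [Fintype ι]
    (d : HData C0 D n ι) (C1 : ℝ), 0 ≤ C1 * D → Floor C1 d → ∀ (p' : ℕ → ℝ), (∀ i, 0 ≤ p' i) →
    ∀ v₀ : Node, v₀.length ≤ n → 0 < AV n p' v₀ →
    S (n - 1 - v₀.length) (fun w => open Classical in
      if keep (ex2 n p' v₀) w then ‖gtp d p' (w ++ v₀)‖ else 0) []
      ≤ C * (1 + C1 * D) * AV n p' v₀ := by
  obtain ⟨C, hC, H⟩ := hE
  refine ⟨100 * C, by positivity, ?_⟩
  intro C0 D n ι _ d C1 hC1 hf p' hp' v₀ hv₀ hM
  classical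
  have ok := sys_ok d hp' hM hv₀
  have hx := sys_x d hp' hM hv₀ hC1 hf
  have hy := sys_y d hp' hM hv₀
  have h := H ι Unit (sys d p' v₀) (n - v₀.length) (fun _ _ => True) (C1 * D) 6 0 2 0 ok hC1
    (by norm_num) le_rfl (by norm_num) le_rfl hx hy ?_ ?_ ?_
  · have h1 := h.2 true
    have h2 := h.2 false
    have e : n - v₀.length - 1 = n - 1 - v₀.length := by omega
    rw [e] at h1 h2
    have h3 : S (n - 1 - v₀.length) (fun w =>
        if keep (ex2 n p' v₀) w then ‖gtp d p' (w ++ v₀)‖ else 0) []
        ≤ S (n - 1 - v₀.length) (fun w => AV n p' v₀ *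
          ((sys d p' v₀).gain1 true w + (sys d p' v₀).gain1 false w)) [] := by
      refine S_mono _ [] fun w hw => ?_
      split_ifs with hk
      · exact node_gain d hM (by simpa using hw) hk
      · exact mul_nonneg hM.le (add_nonneg (norm_nonneg _) (norm_nonneg _))
    rw [S_smul, S_add] at h3
    have h4 : √((1 + 0 + C1 * D + 6) * (1 + 0 + 6 + √(6 * (C1 * D)))) ≤ 20 * (1 + C1 * D) := by
      generalize C1 * D = t at hC1
      have h5 : √(6 * t) ≤ 6 * (1 + t) := by
        rw [Real.sqrt_le_left (by positivity)]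
        nlinarith
      rw [Real.sqrt_le_left (by positivity)]
      have h6 : 1 + 0 + 6 + √(6 * t) ≤ 13 * (1 + t) := by linarith
      have h7 : 1 + 0 + t + 6 ≤ 7 * (1 + t) := by linarith
      calc (1 + 0 + t + 6) * (1 + 0 + 6 + √(6 * t))
          ≤ (7 * (1 + t)) * (13 * (1 + t)) := by
            gcongr
        _ ≤ (20 * (1 + t)) ^ 2 := by nlinarith [sq_nonneg (1 + t)]
    have h8 : C * (2 * (C1 * D) + √((1 + 0 + C1 * D + 6) * (1 + 0 + 6 + √(6 * (C1 * D))))
        + √(C1 * D * 0)) ≤ 22 * C * (1 + C1 * D) := by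
      rw [mul_zero, Real.sqrt_zero, add_zero]
      nlinarith
    calc _ ≤ _ := h3
      _ ≤ AV n p' v₀ * (22 * C * (1 + C1 * D) + 22 * C * (1 + C1 * D)) := by
        gcongr
        · exact h1.trans h8
        · exact h2.trans h8
      _ ≤ 100 * C * (1 + C1 * D) * AV n p' v₀ := by
        have : 0 ≤ C * (1 + C1 * D) * AV n p' v₀ := by positivity
        nlinarith
  · have h2 : ∀ w : Node, w.length < n - v₀.length + ([] : Node).length →
        ∑ k, max ((sys d p' v₀).α' k w - (sys d p' v₀).α k w) 0 ≤ 0 := by
      intro w _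
      refine (sum_le_sum (g := fun _ => (0:ℝ)) fun k _ => ?_).trans (by simp)
      refine max_le ?_ le_rfl
      simp only [sys]
      split_ifs
      · simp
      · omega
      · simpa using AV_nonneg (aa_nonneg d _ k) _
      · simp
    have h3 := S_mono (n - v₀.length) [] h2
    have h4 : S (n - v₀.length) (fun _ => (0:ℝ)) [] = 0 := by
      have := S_smul (n - v₀.length) 0 (fun _ => 0) []
      simpa using this
    linarith
  · intro k w hw _
    have hz : ∀ (x : ℂ) (y : ℂ) (a g : ℝ), ‖x‖ ≤ a → ‖y‖ ≤ g → 0 ≤ a → g ≤ 2 → ‖x * y‖ ≤ 2 * a := by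
      intro x y a g hx hy ha hg
      rw [norm_mul]
      calc ‖x‖ * ‖y‖ ≤ a * 2 := by
            gcongr
            exact hy.trans hg
        _ = 2 * a := by ring
    refine ⟨?_, fun c => ?_⟩
    · simp only [ESys.z, univ_unique, sum_singleton]
      refine hz _ _ _ _ (ok.A1 k _ w hw) (ok.B1 k _ w hw) (ok.α0 k w hw) ?_
      have := ok.Gsum w hw
      simpa using this
    · have hw' : (c :: w).length ≤ n - v₀.length := by simp only [List.length_cons]; omega
      simp only [ESys.z', univ_unique, sum_singleton]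
      refine hz _ _ _ _ (ok.A1' k _ _ hw') (ok.B1' k _ _ hw') (ok.α0' k _ hw') ?_
      have := ok.Gsum' _ hw'
      simpa using this
  · have h2 : ∀ w : Node, (∑ k, if True then (0:ℝ) else
        (sys d p' v₀).α k w * ‖(sys d p' v₀).τ k w‖ ^ 2) = 0 := by
      intro w
      simp
    simp only [if_true, sum_const_zero]
    have h4 : S (n - v₀.length) (fun _ => (0:ℝ)) [] = 0 := by
      have := S_smul (n - v₀.length) 0 (fun _ => 0) []
      simpa using this
    rw [h4]

/-! ## the crude bound -/

theorem AV_append_zero {F : ℕ → ℝ} (hF : ∀ i, 0 ≤ F i) {v₀ : Node} (h : AV n F v₀ = 0)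
    (w : Node) (hw : (w ++ v₀).length ≤ n) : AV n F (w ++ v₀) = 0 := by
  induction w with
  | nil => exact h
  | cons b w ih =>
    simp only [List.cons_append, List.length_cons] at hw
    exact AV_child_zero hF (by omega) (ih (by omega)) b

theorem SC_zero_of (N : ℕ) {F : Node → ℂ} {v : Node}
    (h : ∀ w : Node, (w ++ v).length < N + v.length → F (w ++ v) = 0) : SC N F v = 0 := by
  have h1 := SC_append N F [] v
  rw [List.nil_append] at h1
  rw [← h1, ← SC_zero N ([] : Node)]
  refine SC_congr N [] fun w hw => h w ?_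
  rw [List.length_append]
  simpa using hw

theorem gain_zero_of_null (d : HData C0 D n ι) {p' : ℕ → ℝ} (hp' : ∀ i, 0 ≤ p' i) {v₀ : Node}
    (h : AV n p' v₀ = 0) : SC (n - 1 - v₀.length) (gtp d p') v₀ = 0 := by
  refine SC_zero_of _ fun w hw => ?_
  have hl : (w ++ v₀).length < n := by rw [List.length_append] at hw ⊢; omega
  unfold gtp
  refine sum_eq_zero fun k _ => ?_
  have h1 := norm_hd_BN_le hp' (d.ξ k) hl
  rw [AV_append_zero hp' h w hl.le] at h1
  rw [norm_le_zero_iff.1 h1, mul_zero, ite_self]

theorem gain_zero_of_big (d : HData C0 D n ι) {p' : ℕ → ℝ} (hp : ∀ i, p' i ≤ d.p i) {v₀ : Node}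
    (h : Real.log D ^ 2 < AV n p' v₀) : SC (n - 1 - v₀.length) (gtp d p') v₀ = 0 := by
  refine SC_zero_of _ fun w hw => ?_
  have hl : (w ++ v₀).length + 1 < n := by rw [List.length_append] at hw ⊢; omega
  have hz : ∀ (k : ι) (x : Node), (x ++ v₀).length ≤ n → AC n (d.A k) (x ++ v₀) = 0 := by
    intro k x hx
    by_contra hne
    have h1 := alive_node d hx hne (m := x.length) (by rw [List.length_append]; omega)
    rw [List.drop_left] at h1
    have h2 := AV_mono (n := n) hp v₀
    linarith
  have hz2 : ∀ (k : ι) (b c : Bool), AC n (d.A k) (b :: c :: (w ++ v₀)) = 0 := by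
    intro k b c
    exact hz k (b :: c :: w) (by
      simp only [List.cons_append, List.length_cons]
      omega)
  unfold gtp
  refine sum_eq_zero fun k _ => ?_
  have e : hd (hd (AC n (d.A k))) (w ++ v₀) = 0 := by
    unfold hd
    rw [hz2, hz2, hz2, hz2]
    simp
  rw [e, zero_mul, ite_self]

/-- number of doublings left (plus `2`), for density `M` below the ceiling `L` -/
noncomputable def dbl (L M : ℝ) : ℝ := 1 + max 0 (Real.logb 2 (4 * L / M))

theorem dbl_ge (L M : ℝ) : 1 ≤ dbl L M := by
  unfold dbl
  have := le_max_left 0 (Real.logb 2 (4 * L / M))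
  linarith

theorem dbl_double {L M M' : ℝ} (hM : 0 < M) (h : 2 * M < M') (hL : M' ≤ L) :
    dbl L M' ≤ dbl L M - 1 := by
  have hM' : 0 < M' := by linarith
  have hL0 : 0 < L := by linarith
  have h1 : Real.logb 2 (4 * L / M') ≤ Real.logb 2 (4 * L / M) - 1 := by
    have e : Real.logb 2 (4 * L / M) - 1 = Real.logb 2 (4 * L / M / 2) := by
      rw [Real.logb_div (x := 4 * L / M) (y := 2) (by positivity) (by norm_num),
        Real.logb_self_eq_one (by norm_num)]
    rw [e]
    apply Real.logb_le_logb_of_le (by norm_num) (by positivity)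
    rw [div_div]
    gcongr
    linarith
  have h2 : 0 ≤ Real.logb 2 (4 * L / M') := by
    apply Real.logb_nonneg (by norm_num)
    rw [le_div_iff₀ hM']
    linarith
  unfold dbl
  rw [max_eq_right h2, max_eq_right (by linarith)]
  linarith

/-- **TRIV**: the crude bound for the gain of a piece `p'` of `p` below the node `v₀`. -/
theorem triv (hE : LemmaE) : ∃ C : ℝ, 0 < C ∧ ∀ {C0 D : ℝ} {n : ℕ} {ι : Type} [Fintype ι]
    (d : HData C0 D n ι) (C1 : ℝ), 2 ≤ D → 0 ≤ C1 → Floor C1 d → ∀ (p' : ℕ → ℝ),
    (∀ i, 0 ≤ p' i) → (∀ i, p' i ≤ d.p i) → ∀ v₀ : Node,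
    ‖SC (n - 1 - v₀.length) (gtp d p') v₀‖
      ≤ C * (1 + C1 * D) * AV n p' v₀ * dbl (Real.log D ^ 2) (AV n p' v₀) := by
  classical
  obtain ⟨C, hC, H⟩ := epoch hE
  refine ⟨C, hC, ?_⟩
  intro C0 D n ι _ d C1 hD hC1 hf p' hp' hp
  have hCD : 0 ≤ C1 * D := by positivity
  have hcst : 0 ≤ C * (1 + C1 * D) := by positivity
  have key : ∀ (t : ℕ) (v₀ : Node), n - v₀.length = t →
      ‖SC (n - 1 - v₀.length) (gtp d p') v₀‖
      ≤ C * (1 + C1 * D) * AV n p' v₀ * dbl (Real.log D ^ 2) (AV n p' v₀) := by
    intro t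
    induction t using Nat.strong_induction_on with
    | _ t ih =>
      intro v₀ ht
      have hM0 := AV_nonneg (n := n) hp' v₀
      have hψ := dbl_ge (Real.log D ^ 2) (AV n p' v₀)
      have hR : 0 ≤ C * (1 + C1 * D) * AV n p' v₀ * dbl (Real.log D ^ 2) (AV n p' v₀) := by
        positivity
      rcases Nat.lt_or_ge v₀.length n with hv | hv
      swap
      · have e : n - 1 - v₀.length = 0 := by omega
        rw [e]
        simpa [SC] using hR
      rcases hM0.eq_or_lt with hM | hM
      · rw [gain_zero_of_null d hp' hM.symm, norm_zero]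
        exact hR
      rcases lt_or_ge (Real.log D ^ 2) (AV n p' v₀) with hL | hL
      · rw [gain_zero_of_big d hp hL, norm_zero]
        exact hR
      set ψ := dbl (Real.log D ^ 2) (AV n p' v₀) with hψd
      have h1 := SC_exit_le (ex2 n p' v₀) (fun w => gtp d p' (w ++ v₀))
        (fun w => C * (1 + C1 * D) * AV n p' (w ++ v₀) * (ψ - 1)) (n - 1 - v₀.length)
        ?_ ?_ ?_ (n - 1 - v₀.length) [] (by simp) trivial
      · rw [SC_append, List.nil_append] at h1
        have h2 := H d C1 hCD hf p' hp' v₀ hv.le hM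
        refine h1.trans ?_
        have h3 : S (n - 1 - v₀.length) (fun w =>
          if keep (ex2 n p' v₀) w then ‖gtp d p' (w ++ v₀)‖ else 0) []
          ≤ C * (1 + C1 * D) * AV n p' v₀ := h2
        calc _ ≤ C * (1 + C1 * D) * AV n p' v₀ + C * (1 + C1 * D) * AV n p' v₀ * (ψ - 1) :=
              add_le_add h3 le_rfl
          _ = C * (1 + C1 * D) * AV n p' v₀ * ψ := by ring
      · intro w hw
        have hl : (w ++ v₀).length < n := by rw [List.length_append]; omega
        rw [AV_mart p' hl]
        simp only [List.cons_append]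
        apply le_of_eq
        ring
      · intro w _
        have := AV_nonneg (n := n) hp' (w ++ v₀)
        have h4 : 0 ≤ ψ - 1 := by linarith
        positivity
      · intro b w hw _ hex
        have hl : (b :: w ++ v₀).length = (b :: w).length + v₀.length := List.length_append
        have h2 : ‖SC (n - 1 - (b :: w ++ v₀).length) (gtp d p') (b :: w ++ v₀)‖
            ≤ C * (1 + C1 * D) * AV n p' (b :: w ++ v₀) * (ψ - 1) := by
          rcases lt_or_ge (Real.log D ^ 2) (AV n p' (b :: w ++ v₀)) with hL2 | hL2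
          · rw [gain_zero_of_big d hp hL2, norm_zero]
            have := AV_nonneg (n := n) hp' (b :: w ++ v₀)
            have h4 : 0 ≤ ψ - 1 := by linarith
            positivity
          · have h3 := ih (n - (b :: w ++ v₀).length) (by
              rw [hl, List.length_cons]
              rw [List.length_cons] at hw
              omega) (b :: w ++ v₀) rfl
            refine h3.trans ?_
            have h4 := dbl_double hM hex hL2
            have := AV_nonneg (n := n) hp' (b :: w ++ v₀)
            gcongr
        have e : n - 1 - v₀.length - (b :: w).length = n - 1 - (b :: w ++ v₀).length := by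
          rw [hl]; omega
        rw [SC_append, e]
        exact h2
  exact fun v₀ => key _ v₀ rfl

end Vale.Agent.P091.T.H34
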