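import Vale.Agent.P091.T.H34.ZBridge
import Vale.Agent.P091.T.H34.Triv
import Vale.Agent.P091.T.Props

/-! # P091: row P_TRIV of the heart -/

open Finset

namespace Vale.Agent.P091.T.H34

open Vale.Agent.P091.Spec Vale.Agent.P091.H413 Vale.Agent.P091.T.H350 Vale.Agent.P091.T

theorem dbl_le {D M : ℝ} (hD : 2 ≤ D) (hM : 0 < M) :
    dbl (Real.log D ^ 2) M ≤ 2 * (1 + max 0 (ll D - Real.logb 2 M)) := by
  have hl : 0 < Real.log D := Real.log_pos (by linarith)
  have h1 : Real.logb 2 (4 * Real.log D ^ 2 / M)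
      = 2 + 2 * Real.logb 2 (Real.log D) - Real.logb 2 M := by
    rw [Real.logb_div (by positivity) hM.ne', Real.logb_mul (by norm_num) (by positivity),
      Real.logb_pow]
    have : Real.logb 2 4 = 2 := by
      rw [show (4:ℝ) = 2 ^ (2:ℕ) by norm_num, Real.logb_pow, Real.logb_self_eq_one (by norm_num)]
      norm_num
    rw [this]
    push_cast
    ring
  have h2 : 2 * Real.logb 2 (Real.log D) + 1 ≤ ll D := by
    unfold ll
    push_cast
    have := Nat.le_ceil (2 * Real.logb 2 (Real.log D))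
    linarith
  unfold dbl
  rw [h1]
  have h3 : max 0 (2 + 2 * Real.logb 2 (Real.log D) - Real.logb 2 M)
      ≤ 1 + max 0 (ll D - Real.logb 2 M) := by
    have h4 := le_max_left 0 (ll D - Real.logb 2 M)
    have h5 := le_max_right 0 (ll D - Real.logb 2 M)
    refine max_le (by linarith) (by linarith)
  have h4 := le_max_left 0 (ll D - Real.logb 2 M)
  linarith

/-- **row TRIV** of `T/Props.lean` -/
theorem p_triv (hE : LemmaE) : P_TRIV := by
  intro C1 hC1
  obtain ⟨C, hC, H⟩ := triv hE
  refine ⟨2 * C * (1 + C1), 2, ?_⟩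
  intro D n ι _ d q j a hD hj ha hq0 hq
  have h := H (toH d) C1 hD hC1 (toH_floor d) q hq0 hq (nodeOf j a)
  rw [length_nodeOf] at h
  rw [gain_eq_SC d q ha, norm_div, norm_pow, Complex.norm_two, ms_eq hj]
  have hAV : AV n q (nodeOf j a) = av n j a q := by
    unfold AV
    rw [length_nodeOf, ix_nodeOf ha]
  rw [hAV] at h
  have hM0 : 0 ≤ av n j a q := av_nonneg hq0
  have hmax := le_max_left 0 (ll D - Real.logb 2 (av n j a q))
  have h2 : C * (1 + C1 * D) * av n j a q * dbl (Real.log D ^ 2) (av n j a q)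
      ≤ 2 * C * (1 + C1) * D * (1 + max 0 (ll D - Real.logb 2 (av n j a q))) * av n j a q := by
    rcases hM0.eq_or_lt with hM | hM
    · rw [← hM]; simp
    · have h3 := dbl_le hD hM
      have h4 : 1 + C1 * D ≤ (1 + C1) * D := by nlinarith
      have h5 := dbl_ge (Real.log D ^ 2) (av n j a q)
      calc C * (1 + C1 * D) * av n j a q * dbl (Real.log D ^ 2) (av n j a q)
          ≤ C * ((1 + C1) * D) * av n j a q
            * (2 * (1 + max 0 (ll D - Real.logb 2 (av n j a q)))) := by gcongr
        _ = _ := by ring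
  calc ‖SC (n - 1 - j) (gtp (toH d) q) (nodeOf j a)‖ / 2 ^ j
      ≤ (2 * C * (1 + C1) * D * (1 + max 0 (ll D - Real.logb 2 (av n j a q))) * av n j a q)
        / 2 ^ j := by
        gcongr
        exact h.trans h2
    _ = _ := by ring

end Vale.Agent.P091.T.H34
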