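import Vale.Agent.P091.T.H350.Bridge

/-! # P091, row TRIV: tree lemmas (relative nodes, first exits) -/

open Finset

namespace Vale.Agent.P091.T.H34

open Vale.Agent.P091.Spec Vale.Agent.P091.H413 Vale.Agent.P091.T.H350

theorem S_append (m : ℕ) (F : Node → ℝ) (u v : Node) :
    S m (fun w => F (w ++ v)) u = S m F (u ++ v) := by
  induction m generalizing u with
  | zero => rfl
  | succ m ih =>
    simp only [S]
    rw [ih, ih]
    rfl

theorem SC_append (m : ℕ) (F : Node → ℂ) (u v : Node) :
    SC m (fun w => F (w ++ v)) u = SC m F (u ++ v) := by
  induction m generalizing u with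
  | zero => rfl
  | succ m ih =>
    simp only [SC]
    rw [ih, ih]
    rfl

theorem Lf_append (m : ℕ) (F : Node → ℝ) (u v : Node) :
    Lf m (fun w => F (w ++ v)) u = Lf m F (u ++ v) := by
  induction m generalizing u with
  | zero => rfl
  | succ m ih =>
    simp only [Lf]
    rw [ih, ih]
    rfl

/-- `keep ex w`: no node of the path from the root (excluded) to `w` (included) is an exit -/
def keep (ex : Node → Prop) : Node → Prop
  | [] => True
  | b :: w => keep ex w ∧ ¬ ex (b :: w)

/-- the parent is kept -/
def kpar (ex : Node → Prop) : Node → Prop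
  | [] => True
  | _ :: w => keep ex w

theorem keep_kpar {ex : Node → Prop} {w : Node} (h : keep ex w) : kpar ex w := by
  cases w with
  | nil => trivial
  | cons b w => exact h.1

open Classical in
/-- **First exits.** The sum over the whole subtree is at most the sum over the kept nodes plus the
sum over the first exits, if the subtree sum at an exit `x` is bounded by `E x`, `E` a
martingale-like (sub)majorant. -/
theorem SC_exit_le (ex : Node → Prop) (F : Node → ℂ) (E : Node → ℝ) (N : ℕ)
    (hE : ∀ w, w.length < N → (E (true :: w) + E (false :: w)) / 2 ≤ E w)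
    (hE0 : ∀ w, w.length ≤ N → 0 ≤ E w)
    (hx : ∀ b w, (b :: w).length ≤ N → keep ex w → ex (b :: w) →
      ‖SC (N - (b :: w).length) F (b :: w)‖ ≤ E (b :: w)) :
    ∀ (m : ℕ) (w : Node), w.length + m = N → keep ex w →
      ‖SC m F w‖ ≤ S m (fun w => if keep ex w then ‖F w‖ else 0) w + E w := by
  intro m
  induction m with
  | zero =>
    intro w hw _
    simp only [SC, S, norm_zero, zero_add]
    exact hE0 w (by omega)
  | succ m ih =>
    intro w hw hk
    have child : ∀ b : Bool, ‖SC m F (b :: w)‖
        ≤ S m (fun w => if keep ex w then ‖F w‖ else 0) (b :: w) + E (b :: w) := by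
      intro b
      have hl : (b :: w).length + m = N := by simp only [List.length_cons]; omega
      by_cases hb : ex (b :: w)
      · have h1 := hx b w (by omega) hk hb
        have e : N - (b :: w).length = m := by omega
        rw [e] at h1
        have h2 : 0 ≤ S m (fun w => if keep ex w then ‖F w‖ else 0) (b :: w) :=
          S_nonneg m _ fun w _ => by split_ifs <;> positivity
        linarith
      · exact ih (b :: w) hl ⟨hk, hb⟩
    have h1 := child true
    have h2 := child false
    have h3 := hE w (by omega)
    simp only [SC, S]
    rw [if_pos hk]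
    have h4 : ‖F w + (SC m F (true :: w) + SC m F (false :: w)) / 2‖
        ≤ ‖F w‖ + (‖SC m F (true :: w)‖ + ‖SC m F (false :: w)‖) / 2 := by
      refine (norm_add_le _ _).trans ?_
      rw [norm_div, Complex.norm_two]
      have := norm_add_le (SC m F (true :: w)) (SC m F (false :: w))
      linarith
    linarith

end Vale.Agent.P091.T.H34
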