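import Vale.Agent.P091.T.H34.ZBridge
import Vale.Agent.P091.T.H34.Tree

/-! # P091, row E1-G (i): the relative tree below the node `(j0, a0)`

Relative nodes `v : Node` correspond to the nodes `(j0 + |v|, ia a0 v)`; relative leaves are the
`x` of length `n - j0`, the corresponding integer is `ia a0 x`. -/

open Finset

namespace Vale.Agent.P091.T.H34

open Vale.Agent.P091.Spec Vale.Agent.P091.H413 Vale.Agent.P091.T.H350 Vale.Agent.P091.T

/-- index of the relative node -/
def ia (a0 : ℕ) (v : Node) : ℕ := a0 * 2 ^ v.length + ix v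

@[simp] theorem ia_nil (a0 : ℕ) : ia a0 [] = a0 := by simp [ia]

theorem ia_true (a0 : ℕ) (v : Node) : ia a0 (true :: v) = 2 * ia a0 v := by
  unfold ia
  rw [List.length_cons, ix_true, pow_succ]
  ring

theorem ia_false (a0 : ℕ) (v : Node) : ia a0 (false :: v) = 2 * ia a0 v + 1 := by
  unfold ia
  rw [List.length_cons, ix_false, pow_succ]
  ring

theorem ix_append_nodeOf {j0 a0 : ℕ} (ha : a0 < 2 ^ j0) (w : Node) :
    ix (w ++ nodeOf j0 a0) = ia a0 w := by
  induction w with
  | nil => simp [ix_nodeOf ha]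
  | cons b w ih =>
    rw [List.cons_append]
    cases b
    · rw [ix_false, ih, ia_false]
    · rw [ix_true, ih, ia_true]

theorem length_append_nodeOf (j0 a0 : ℕ) (w : Node) :
    (w ++ nodeOf j0 a0).length = j0 + w.length := by
  rw [List.length_append, length_nodeOf, add_comm]

theorem ia_lt {j0 a0 : ℕ} (ha : a0 < 2 ^ j0) (w : Node) : ia a0 w < 2 ^ (j0 + w.length) := by
  rw [← ix_append_nodeOf ha, ← length_append_nodeOf j0 a0 w]
  exact ix_lt _

/-- the ancestor relation -/
theorem ia_append (a0 : ℕ) (w u : Node) : ia a0 (w ++ u) / 2 ^ w.length = ia a0 u := by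
  induction w with
  | nil => simp
  | cons b w ih =>
    rw [List.cons_append, List.length_cons, pow_succ', ← Nat.div_div_eq_div_mul]
    have : ia a0 (b :: (w ++ u)) / 2 = ia a0 (w ++ u) := by
      cases b
      · rw [ia_false]; omega
      · rw [ia_true]; omega
    rw [this, ih]

theorem ia_div (a0 : ℕ) (w : Node) : ia a0 w / 2 ^ w.length = a0 := by
  have := ia_append a0 w []
  simpa using this

theorem LC_append (m : ℕ) (F : Node → ℂ) (u v : Node) :
    LC m (fun w => F (w ++ v)) u = LC m F (u ++ v) := by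
  induction m generalizing u with
  | zero => rfl
  | succ m ih =>
    simp only [LC]
    rw [ih, ih]
    rfl

theorem LC_congr_below (m : ℕ) {F G : Node → ℂ} (v : Node)
    (h : ∀ l : List Bool, l.length = m → F (l ++ v) = G (l ++ v)) : LC m F v = LC m G v := by
  induction m generalizing v with
  | zero => exact h [] rfl
  | succ m ih =>
    simp only [LC]
    rw [ih (true :: v) (fun l hl => by
        have := h (l ++ [true]) (by simp [hl])
        simpa using this),
      ih (false :: v) (fun l hl => by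
        have := h (l ++ [false]) (by simp [hl])
        simpa using this)]

theorem Lf_congr_below' (m : ℕ) {F G : Node → ℝ} (v : Node)
    (h : ∀ l : List Bool, l.length = m → F (l ++ v) = G (l ++ v)) : Lf m F v = Lf m G v := by
  induction m generalizing v with
  | zero => exact h [] rfl
  | succ m ih =>
    simp only [Lf]
    rw [ih (true :: v) (fun l hl => by
        have := h (l ++ [true]) (by simp [hl])
        simpa using this),
      ih (false :: v) (fun l hl => by
        have := h (l ++ [false]) (by simp [hl])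
        simpa using this)]

/-- averages over relative nodes are averages over relative leaves -/
theorem av_rel {n j0 a0 : ℕ} (ha : a0 < 2 ^ j0) (F : ℕ → ℝ) {w : Node}
    (hw : j0 + w.length ≤ n) :
    av n (j0 + w.length) (ia a0 w) F = Lf (n - j0 - w.length) (fun x => F (ia a0 x)) w := by
  have h1 : av n (j0 + w.length) (ia a0 w) F = AV n F (w ++ nodeOf j0 a0) := by
    unfold AV
    rw [length_append_nodeOf, ix_append_nodeOf ha]
  have hl : (w ++ nodeOf j0 a0).length + (n - j0 - w.length) = n := by
    rw [length_append_nodeOf]; omega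
  rw [h1, ← Lf_AV F (n - j0 - w.length) hl.le, ← Lf_append]
  refine Lf_congr_below' _ _ fun l hl2 => ?_
  unfold AV
  have e : (l ++ w ++ nodeOf j0 a0).length = n := by
    rw [length_append_nodeOf, List.length_append]; omega
  rw [e, av_leaf, ix_append_nodeOf ha]

theorem avC_rel {n j0 a0 : ℕ} (ha : a0 < 2 ^ j0) (F : ℕ → ℂ) {w : Node}
    (hw : j0 + w.length ≤ n) :
    avC n (j0 + w.length) (ia a0 w) F = LC (n - j0 - w.length) (fun x => F (ia a0 x)) w := by
  have h1 : avC n (j0 + w.length) (ia a0 w) F = AC n F (w ++ nodeOf j0 a0) := by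
    unfold AC
    rw [length_append_nodeOf, ix_append_nodeOf ha]
  have hl : (w ++ nodeOf j0 a0).length + (n - j0 - w.length) = n := by
    rw [length_append_nodeOf]; omega
  rw [h1, ← LC_AC F (n - j0 - w.length) hl.le, ← LC_append]
  refine LC_congr_below _ _ fun l hl2 => ?_
  unfold AC
  have e : (l ++ w ++ nodeOf j0 a0).length = n := by
    rw [length_append_nodeOf, List.length_append]; omega
  rw [e, avC_leaf, ix_append_nodeOf ha]

variable {C1 D : ℝ} {n b : ℕ} {ι : Type} [Fintype ι]

/-- relative average of the coefficients of the class -/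
noncomputable def ACr (d : ZData C1 D n b ι) (j0 a0 : ℕ) (κ : ι) (w : Node) : ℂ :=
  avC n (j0 + w.length) (ia a0 w) (d.A κ)

/-- relative letter average of the weight `q` -/
noncomputable def BZr (d : ZData C1 D n b ι) (j0 a0 : ℕ) (q : ℕ → ℝ) (κ : ι) (w : Node) : ℂ :=
  BZ n b q (d.r κ) (j0 + w.length) (ia a0 w)

/-- the node term of the integer model, all classes -/
theorem ng_eq_sum (d : ZData C1 D n b ι) (q : ℕ → ℝ) {v : Node} (hv : v.length + 2 ≤ n) :
    2 ^ v.length * ng d q v.length (ix v) = ∑ k, if d.js k + 3 ≤ v.length then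
        hd (hd (AC n (d.A k))) v * hd (BN n q (zxi (d.r k))) v else 0 := by
  unfold ng
  rw [mul_sum]
  refine sum_congr rfl fun k _ => ?_
  split_ifs
  · rw [← node_term' hv, dZ_eq]
    have e : (2:ℂ) ^ n = 2 ^ (n - v.length) * 2 ^ v.length := by
      rw [← pow_add]
      congr 1
      omega
    rw [e]
    field_simp
  · ring

theorem hd_ACr (d : ZData C1 D n b ι) {j0 a0 : ℕ} (ha : a0 < 2 ^ j0) (κ : ι) (w : Node) :
    hd (hd (AC n (d.A κ))) (w ++ nodeOf j0 a0) = hd (hd (ACr d j0 a0 κ)) w := by
  have h : ∀ w : Node, AC n (d.A κ) (w ++ nodeOf j0 a0) = ACr d j0 a0 κ w := by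
    intro w
    unfold AC ACr
    rw [length_append_nodeOf, ix_append_nodeOf ha]
  unfold hd
  rw [← List.cons_append, ← List.cons_append, ← List.cons_append, ← List.cons_append,
    ← List.cons_append, ← List.cons_append, h, h, h, h]

theorem hd_BZr (d : ZData C1 D n b ι) {j0 a0 : ℕ} (ha : a0 < 2 ^ j0) (q : ℕ → ℝ) (κ : ι)
    (w : Node) : hd (BN n q (zxi (d.r κ))) (w ++ nodeOf j0 a0) = hd (BZr d j0 a0 q κ) w := by
  have h : ∀ w : Node, BN n q (zxi (d.r κ)) (w ++ nodeOf j0 a0) = BZr d j0 a0 q κ w := by
    intro w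
    rw [← BZ_eq]
    unfold BZr
    rw [length_append_nodeOf, ix_append_nodeOf ha]
  unfold hd
  rw [← List.cons_append, ← List.cons_append, h, h]

/-- **E1-G (i)**: the form below a node is a sum over the relative tree -/
theorem below_rel (d : ZData C1 D n b ι) (q : ℕ → ℕ → ℕ → ℝ) {j0 a0 : ℕ} (ha : a0 < 2 ^ j0) :
    below j0 a0 (n - 1) (fun j a => ng d (q j a) j a)
      = SC (n - j0 - 1) (fun w => ∑ κ, if d.js κ + 3 ≤ j0 + w.length then
          hd (hd (ACr d j0 a0 κ)) w * hd (BZr d j0 a0 (q (j0 + w.length) (ia a0 w)) κ) w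
          else 0) [] / 2 ^ j0 := by
  rw [below_eq' ha]
  have e : n - 1 - j0 = n - j0 - 1 := by omega
  rw [e]
  congr 1
  have h1 := SC_append (n - j0 - 1) (fun w => (2:ℂ) ^ w.length *
    ng d (q w.length (ix w)) w.length (ix w)) [] (nodeOf j0 a0)
  rw [List.nil_append] at h1
  rw [← h1]
  refine SC_congr _ _ fun w hw => ?_
  simp only [List.length_nil, add_zero] at hw
  rw [ng_eq_sum d _ (by rw [length_append_nodeOf]; omega)]
  refine sum_congr rfl fun κ _ => ?_
  rw [length_append_nodeOf, ix_append_nodeOf ha, hd_ACr d ha, hd_BZr d ha]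

/-- mass of a relative node -/
theorem ms_rel {n j0 a0 : ℕ} (hj : j0 ≤ n) (q : ℕ → ℝ) :
    ms n j0 a0 q = av n j0 a0 q / 2 ^ j0 := ms_eq hj q

/-- leaves below the relative node -/
theorem mem_nd_ia {n j0 a0 : ℕ} {w x : Node} (hx : (x ++ w).length + j0 = n) :
    ia a0 (x ++ w) ∈ nd n (j0 + w.length) (ia a0 w) := by
  rw [mem_nd]
  unfold Spec.anc
  have e : n - (j0 + w.length) = x.length := by
    rw [List.length_append] at hx; omega
  rw [e, ia_append]

end Vale.Agent.P091.T.H34
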