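import Vale.Agent.P091.T.Defs
import Vale.Agent.P091.T.H350.Bridge

/-! # P091: `ZData` of the heart (integer letters) in the list tree

* `toH d : HData C1 D n {k // ∃ i, d.A k i ≠ 0}`, the same data with real letters `r / 2^(n+b)`;
* `BZ = BN`, `dZ = hd BN`;
* `below = SC` for arbitrary `f`;
* `gain d q = SC (gtp (toH d) q)`, up to the factor `2^{-j}`. -/

open Finset

namespace Vale.Agent.P091.T.H34

open Vale.Agent.P091.Spec Vale.Agent.P091.H413 Vale.Agent.P091.T.H350 Vale.Agent.P091.T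

/-! ## sums over nodes below a node -/

theorem below_eq (m : ℕ) (f : ℕ → ℕ → ℂ) (v : Node) :
    below v.length (ix v) (v.length + m) f
      = SC m (fun w => 2 ^ w.length * f w.length (ix w)) v / 2 ^ v.length := by
  have h1 : SC m (fun w => 2 ^ w.length * f w.length (ix w)) v
      = ∑ i ∈ range m, (∑ c ∈ range (2 ^ i),
        (2:ℂ) ^ (v.length + i) * f (v.length + i) (2 ^ i * ix v + c)) / 2 ^ i := by
    rw [SC_eq_sum]
    refine sum_congr rfl fun i _ => ?_
    exact LC_eq i (fun j a => 2 ^ j * f j a) v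
  rw [h1]
  unfold below
  rw [sum_div, sum_Ico_eq_sum_range, Nat.add_sub_cancel_left]
  refine sum_congr rfl fun i _ => ?_
  rw [Nat.add_sub_cancel_left, sum_Ico_eq_sum_range, ← mul_sum]
  have e : (ix v + 1) * 2 ^ i - ix v * 2 ^ i = 2 ^ i := by
    rw [add_mul, one_mul, Nat.add_sub_cancel_left]
  rw [e]
  have e2 : ∀ c, ix v * 2 ^ i + c = 2 ^ i * ix v + c := fun c => by rw [mul_comm]
  simp_rw [e2]
  rw [pow_add]
  field_simp

theorem below_congr {j0 a0 j1 : ℕ} {f g : ℕ → ℕ → ℂ}
    (h : ∀ j a, j0 ≤ j → j < j1 → f j a = g j a) : below j0 a0 j1 f = below j0 a0 j1 g := by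
  unfold below
  refine sum_congr rfl fun j hj => sum_congr rfl fun a _ => ?_
  rw [mem_Ico] at hj
  exact h j a hj.1 hj.2

theorem below_eq' {n j a : ℕ} (ha : a < 2 ^ j) (f : ℕ → ℕ → ℂ) :
    below j a (n - 1) f
      = SC (n - 1 - j) (fun w => 2 ^ w.length * f w.length (ix w)) (nodeOf j a) / 2 ^ j := by
  have h := below_eq (n - 1 - j) f (nodeOf j a)
  rw [length_nodeOf, ix_nodeOf ha] at h
  rw [← h]
  unfold below
  congr 1
  rcases le_or_gt j (n - 1) with hj | hj
  · congr 1
    omega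
  · rw [Ico_eq_empty (by omega), Ico_eq_empty (by omega)]

/-! ## letters -/

/-- the real letter of `r : ZMod (2^(n+b))` -/
noncomputable def zxi {n b : ℕ} (r : ZMod (2 ^ (n + b))) : ℝ := (r.val : ℝ) / 2 ^ (n + b)

theorem ch_eq {n b : ℕ} (r : ZMod (2 ^ (n + b))) (i : ℕ) : ch n b (-(r * i)) = e (-(zxi r * i)) := by
  have h1 : -(r * (i : ZMod (2 ^ (n + b)))) = ((-((r.val : ℤ) * i) : ℤ) : ZMod (2 ^ (n + b))) := by
    push_cast
    rw [ZMod.natCast_zmod_val]
  unfold ch e zxi
  rw [h1, ZMod.stdAddChar_coe]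
  congr 1
  push_cast
  ring

theorem BZ_eq {n b : ℕ} (q : ℕ → ℝ) (r : ZMod (2 ^ (n + b))) (v : Node) :
    BZ n b q r v.length (ix v) = BN n q (zxi r) v := by
  unfold BZ BN BB
  congr 1
  funext i
  rw [ch_eq]

theorem dZ_eq {n b : ℕ} (q : ℕ → ℝ) (r : ZMod (2 ^ (n + b))) (v : Node) :
    dZ n b q r v.length (ix v) = hd (BN n q (zxi r)) v := by
  have h1 := BZ_eq q r (true :: v)
  have h2 := BZ_eq q r (false :: v)
  simp only [List.length_cons, ix_true, ix_false] at h1 h2
  unfold dZ hd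
  rw [h1, h2]

/-! ## the data -/

variable {C1 D : ℝ} {n b : ℕ} {ι : Type} [Fintype ι]

/-- the classes which carry weight -/
def Act (d : ZData C1 D n b ι) : Type := {k : ι // ∃ i, d.A k i ≠ 0}

open Classical in
noncomputable instance instFintypeAct (d : ZData C1 D n b ι) : Fintype (Act d) :=
  inferInstanceAs (Fintype {k : ι // ∃ i, d.A k i ≠ 0})

open Classical in
theorem sum_act (d : ZData C1 D n b ι) {M : Type*} [AddCommMonoid M] (g : ι → M) :
    ∑ k : Act d, g k.1 = ∑ k ∈ univ.filter (fun k : ι => ∃ i, d.A k i ≠ 0), g k :=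
  (Finset.sum_subtype (univ.filter (fun k : ι => ∃ i, d.A k i ≠ 0)) (by simp) g).symm

/-- the classes which carry weight, with real letters -/
noncomputable def toH (d : ZData C1 D n b ι) : HData C1 D n (Act d) where
  p := d.p
  js k := d.js k.1
  ac k := d.ac k.1
  ξ k := zxi (d.r k.1)
  a k := d.a k.1
  A k := d.A k.1
  p_nonneg := d.p_nonneg
  p_le := d.p_le
  p_avg := d.p_avg
  js_le k := d.js_le k.1
  ac_lt k := d.ac_lt k.1
  a_nonneg k := d.a_nonneg k.1
  a_sum i := by
    classical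
    rw [sum_act d (fun k => d.a k i)]
    exact (sum_le_sum_of_subset_of_nonneg (filter_subset _ _)
      fun k _ _ => d.a_nonneg k i).trans (d.a_sum i)
  a_supp k := d.a_supp k.1
  a_mass k := by
    obtain ⟨k, i, hi⟩ := k
    have h1 := d.floor k i hi (d.js k) le_rfl (d.js_le k)
    have h2 : d.a k i ≠ 0 := by
      intro h0
      apply hi
      have := d.A_le k i
      rw [h0] at this
      exact norm_le_zero_iff.1 this
    have h3 := mem_nd.1 (d.a_supp k i h2)
    rw [h3] at h1
    exact h1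
  A_le k := d.A_le k.1
  alive k := d.alive k.1

theorem toH_floor (d : ZData C1 D n b ι) (k : Act d) (i : ℕ)
    (h : (toH d).A k i ≠ 0) (j : ℕ) (hj : (toH d).js k ≤ j) (hjn : j ≤ n) :
    Real.exp (-(C1 * D)) ≤ av n j (anc n j i) ((toH d).a k) := d.floor k.1 i h j hj hjn

/-- the node term of the integer model is the node term of the list tree -/
theorem ng_eq (d : ZData C1 D n b ι) (q : ℕ → ℝ) {v : Node} (hv : v.length + 2 ≤ n) :
    2 ^ v.length * ng d q v.length (ix v) = gtp (toH d) q v := by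
  classical
  unfold ng gtp
  have h1 : ∀ k : ι, (2:ℂ) ^ v.length * (if d.js k + 3 ≤ v.length then
      (∑ i ∈ nd n v.length (ix v), d.A k i * sg n v.length i) / 2 ^ n
        * dZ n b q (d.r k) v.length (ix v) else 0)
      = if d.js k + 3 ≤ v.length then
        hd (hd (AC n (d.A k))) v * hd (BN n q (zxi (d.r k))) v else 0 := by
    intro k
    split_ifs
    · rw [← node_term' hv, dZ_eq]
      have e : (2:ℂ) ^ n = 2 ^ (n - v.length) * 2 ^ v.length := by
        rw [← pow_add]
        congr 1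
        omega
      rw [e]
      field_simp
    · ring
  rw [mul_sum, sum_congr rfl fun k _ => h1 k]
  have h2 : ∑ k : Act d, (if (toH d).js k + 3 ≤ v.length then
        hd (hd (AC n ((toH d).A k))) v * hd (BN n q ((toH d).ξ k)) v else 0)
      = ∑ k ∈ univ.filter (fun k : ι => ∃ i, d.A k i ≠ 0), (if d.js k + 3 ≤ v.length then
        hd (hd (AC n (d.A k))) v * hd (BN n q (zxi (d.r k))) v else 0) :=
    sum_act d (fun k => if d.js k + 3 ≤ v.length then
        hd (hd (AC n (d.A k))) v * hd (BN n q (zxi (d.r k))) v else 0)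
  rw [h2]
  symm
  refine sum_subset (filter_subset _ _) fun k _ hk => ?_
  rw [mem_filter] at hk
  push Not at hk
  have hz : ∀ w : Node, AC n (d.A k) w = 0 := by
    intro w
    by_contra hne
    obtain ⟨i, _, hi⟩ := AC_ne_zero hne
    exact hi (hk (mem_univ k) i)
  have e : hd (hd (AC n (d.A k))) v = 0 := by
    unfold hd
    simp [hz]
  rw [e, zero_mul, ite_self]

theorem gain_eq_SC (d : ZData C1 D n b ι) (q : ℕ → ℝ) {j a : ℕ} (ha : a < 2 ^ j) :
    T.gain d q j a = SC (n - 1 - j) (gtp (toH d) q) (nodeOf j a) / 2 ^ j := by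
  unfold T.gain
  rw [below_eq' ha]
  congr 1
  rcases le_or_gt j (n - 1) with hj | hj
  · refine SC_congr _ _ fun w hw => ?_
    rw [length_nodeOf] at hw
    exact ng_eq d q (by omega)
  · have e : n - 1 - j = 0 := by omega
    rw [e]
    rfl

/-- the same for the family of an epoch: `W` may depend on the node -/
theorem below_ng_eq (d : ZData C1 D n b ι) (q : ℕ → ℕ → ℕ → ℝ) {j a : ℕ} (ha : a < 2 ^ j) :
    below j a (n - 1) (fun j a => ng d (q j a) j a)
      = SC (n - 1 - j) (fun w => gtp (toH d) (q w.length (ix w)) w) (nodeOf j a) / 2 ^ j := by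
  rw [below_eq' ha]
  congr 1
  rcases le_or_gt j (n - 1) with hj | hj
  · refine SC_congr _ _ fun w hw => ?_
    rw [length_nodeOf] at hw
    exact ng_eq d _ (by omega)
  · have e : n - 1 - j = 0 := by omega
    rw [e]
    rfl

theorem ms_eq {j a : ℕ} (hj : j ≤ n) (q : ℕ → ℝ) : ms n j a q = av n j a q / 2 ^ j := by
  unfold ms av
  have e : (2:ℝ) ^ n = 2 ^ (n - j) * 2 ^ j := by
    rw [← pow_add]
    congr 1
    omega
  rw [e]
  field_simp

end Vale.Agent.P091.T.H34
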